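import Mathlib
import Vale.Agent.Lib.P028.Rogers
import Vale.Agent.Lib.P028.Cells
import Vale.Agent.Lib.P028.Digits

namespace Vale.Agent.Results.P028.NestedBlocksFullMeasure

open Finset MeasureTheory Filter Vale.Agent.Lib.P028

/-- Weak inhomogeneous Duffin-Schaeffer, with moving targets `γ q`, for approximating functions
of nested Duffin-Schaeffer type: there is a divisibility chain `N 0 ∣ N 1 ∣ ...` such that every
`q` in the support of `ψ` satisfies `N j ∣ q ∣ N (j+1)` and `q / N (j+1) ≤ ψ q ≤ C q / N (j+1)`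
for some `j`.  If the Duffin-Schaeffer sum `∑ φ(q) ψ(q) / q` diverges, then almost every real `x`
has `|q x - a - γ q| < ψ q` for infinitely many `q`. -/
theorem result (N : ℕ → ℕ) (hN : ∀ j, 0 < N j) (hchain : ∀ j, N j ∣ N (j + 1))
    (ψ γ : ℕ → ℝ) (C : ℝ)
    (hψ : ∀ q, ψ q ≠ 0 → ∃ j, N j ∣ q ∧ q ∣ N (j + 1) ∧
      (q : ℝ) / N (j + 1) ≤ ψ q ∧ ψ q ≤ C * ((q : ℝ) / N (j + 1)))
    (hdiv : ¬ Summable (fun q : ℕ => (Nat.totient q : ℝ) * ψ q / q)) :
    ∀ᵐ x : ℝ, {q : ℕ | ∃ a : ℤ, |(q : ℝ) * x - a - γ q| < ψ q}.Infinite := by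
  classical
  choose! J hJ using hψ
  let Qb : ℕ → Finset ℕ := fun j => (N (j + 1)).divisors.filter (fun q => ψ q ≠ 0 ∧ J q = j)
  let Fam : ℕ → Finset (ℕ × ℤ) := fun j =>
    (Qb j).image (fun q => (N (j + 1) / q, ⌊(N (j + 1) : ℝ) * γ q / q⌋))
  let T : ℕ → Finset ℕ := fun j => cov (N (j + 1) / N j) (Fam j)
  have hT : ∀ j, T j ⊆ range (N (j + 1) / N j) := fun j => cov_subset _ _
  let U : ℕ → Set ℝ := digitSet N T
  let μ : Measure ℝ := volume.restrict (Set.Ico (0:ℝ) 1)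
  have hprob : IsProbabilityMeasure μ := ⟨by simp [μ]⟩
  have hUm : ∀ j, MeasurableSet (U j) := fun j => measurableSet_digitSet N T j
  have hPpos : ∀ j, 0 < N (j + 1) / N j := fun j =>
    Nat.div_pos (Nat.le_of_dvd (hN (j + 1)) (hchain j)) (hN j)
  have hQb : ∀ j q, q ∈ Qb j →
      q ∣ N (j + 1) ∧ N j ∣ q ∧ 0 < q ∧ (q:ℝ) / N (j + 1) ≤ ψ q := by
    intro j q hq
    rw [mem_filter, Nat.mem_divisors] at hq
    obtain ⟨⟨hqN, _⟩, hψq, hJq⟩ := hq
    have := hJ q hψq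
    rw [hJq] at this
    exact ⟨hqN, this.1, Nat.pos_of_dvd_of_pos hqN (hN (j + 1)), this.2.2.1⟩
  have hmP : ∀ j q, q ∈ Qb j → N (j + 1) / q ∣ N (j + 1) / N j := by
    intro j q hq
    obtain ⟨hqN, hNq, hq0, -⟩ := hQb j q hq
    obtain ⟨k, hk⟩ := hNq
    obtain ⟨m, hm⟩ := hqN
    have h1 : N (j + 1) / q = m := by rw [hm]; exact Nat.mul_div_cancel_left m hq0
    have h2 : N (j + 1) / N j = k * m := by
      rw [hm, hk, Nat.mul_assoc]; exact Nat.mul_div_cancel_left _ (hN j)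
    rw [h1, h2]; exact Dvd.intro_left k rfl
  have hUq : ∀ j x, x ∈ U j → ∃ q ∈ Qb j, ∃ a : ℤ, |(q : ℝ) * x - a - γ q| < ψ q := by
    intro j x hx
    obtain ⟨hx01, hxT⟩ := hx
    obtain ⟨-, p, hp, hdvd⟩ := mem_cov.mp hxT
    obtain ⟨q, hq, rfl⟩ := mem_image.mp hp
    obtain ⟨hqN, hNq, hq0, hψq⟩ := hQb j q hq
    simp only at hdvd
    have hdvd' : ((N (j + 1) / q : ℕ) : ℤ) ∣
        ((⌊(N (j + 1) : ℝ) * x⌋₊ : ℕ) : ℤ) - ⌊(N (j + 1) : ℝ) * γ q / q⌋ := by
      have h3 := Nat.mod_add_div ⌊(N (j + 1) : ℝ) * x⌋₊ (N (j + 1) / N j)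
      have h4 : ((⌊(N (j + 1) : ℝ) * x⌋₊ : ℕ) : ℤ)
          = ((⌊(N (j + 1) : ℝ) * x⌋₊ % (N (j + 1) / N j) : ℕ) : ℤ)
            + ((N (j + 1) / N j : ℕ) : ℤ)
              * ((⌊(N (j + 1) : ℝ) * x⌋₊ / (N (j + 1) / N j) : ℕ) : ℤ) := by
        exact_mod_cast h3.symm
      have e : ((⌊(N (j + 1) : ℝ) * x⌋₊ : ℕ) : ℤ) - ⌊(N (j + 1) : ℝ) * γ q / q⌋
          = (((⌊(N (j + 1) : ℝ) * x⌋₊ % (N (j + 1) / N j) : ℕ) : ℤ)
              - ⌊(N (j + 1) : ℝ) * γ q / q⌋)
            + ((N (j + 1) / N j : ℕ) : ℤ)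
              * ((⌊(N (j + 1) : ℝ) * x⌋₊ / (N (j + 1) / N j) : ℕ) : ℤ) := by
        linarith
      rw [e]
      exact dvd_add hdvd (Dvd.dvd.mul_right (Int.natCast_dvd_natCast.mpr (hmP j q hq)) _)
    obtain ⟨a, ha⟩ := cell_subset (N (j + 1)) (hN (j + 1)) q hq0 hqN (γ q) x hx01.1 hdvd'
    exact ⟨q, hq, a, lt_of_lt_of_le ha hψq⟩
  have hμU : ∀ j, μ (U j) = volume (U j) := by
    intro j
    show (volume.restrict (Set.Ico (0:ℝ) 1)) (U j) = volume (U j)
    rw [Measure.restrict_apply (hUm j)]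
    congr 1
    exact Set.inter_eq_left.mpr (digitSet_subset N T j)
  have hUvol : ∀ j,
      ENNReal.ofReal ((∑ q ∈ Qb j, (Nat.totient q : ℝ)) / N (j + 1)) ≤ μ (U j) := by
    intro j
    have hsub : {x : ℝ | x ∈ Set.Ico (0:ℝ) 1 ∧
          ⌊(N (j + 1) : ℝ) * x⌋₊ ∈ cov (N (j + 1)) (Fam j)} ⊆ U j := by
      rintro x ⟨hx, hc⟩
      refine ⟨hx, ?_⟩
      obtain ⟨-, p, hp, hdvd⟩ := mem_cov.mp hc
      have hpP : p.1 ∣ N (j + 1) / N j := by
        obtain ⟨q, hq, rfl⟩ := mem_image.mp hp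
        exact hmP j q hq
      show _ ∈ cov (N (j + 1) / N j) (Fam j)
      rw [mem_cov]
      refine ⟨Nat.mod_lt _ (hPpos j), p, hp, ?_⟩
      have h3 := Nat.mod_add_div ⌊(N (j + 1) : ℝ) * x⌋₊ (N (j + 1) / N j)
      have h4 : ((⌊(N (j + 1) : ℝ) * x⌋₊ : ℕ) : ℤ)
          = ((⌊(N (j + 1) : ℝ) * x⌋₊ % (N (j + 1) / N j) : ℕ) : ℤ)
            + ((N (j + 1) / N j : ℕ) : ℤ)
              * ((⌊(N (j + 1) : ℝ) * x⌋₊ / (N (j + 1) / N j) : ℕ) : ℤ) := by
        exact_mod_cast h3.symm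
      have e : ((⌊(N (j + 1) : ℝ) * x⌋₊ % (N (j + 1) / N j) : ℕ) : ℤ) - p.2
          = (((⌊(N (j + 1) : ℝ) * x⌋₊ : ℕ) : ℤ) - p.2)
            - ((N (j + 1) / N j : ℕ) : ℤ)
              * ((⌊(N (j + 1) : ℝ) * x⌋₊ / (N (j + 1) / N j) : ℕ) : ℤ) := by
        linarith
      rw [e]
      exact dvd_sub hdvd (Dvd.dvd.mul_right (Int.natCast_dvd_natCast.mpr hpP) _)
    rw [hμU j]
    refine le_trans ?_ (measure_mono hsub)
    rw [volume_cells (N (j + 1)) (hN (j + 1)) _ (cov_subset _ _)]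
    apply ENNReal.ofReal_le_ofReal
    have hNpos : (0:ℝ) < N (j + 1) := by exact_mod_cast hN (j + 1)
    apply div_le_div_of_nonneg_right _ hNpos.le
    have := totient_sum_le_cov (N (j + 1)) (hN (j + 1)) (Qb j) (fun q hq => (hQb j q hq).1)
      (fun q => ⌊(N (j + 1) : ℝ) * γ q / q⌋)
    exact_mod_cast this
  have hform : ∀ s : Finset ℕ, μ (⋂ j ∈ s, U j)
      = ENNReal.ofReal (∏ j ∈ s, ((T j).card : ℝ) / ((N (j + 1) / N j : ℕ) : ℝ)) :=
    restrict_biInter_digitSet N hN hchain T hT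
  have hsingle : ∀ j, μ (U j)
      = ENNReal.ofReal (((T j).card : ℝ) / ((N (j + 1) / N j : ℕ) : ℝ)) := by
    intro j
    have := hform {j}
    simpa using this
  have hindep : ProbabilityTheory.iIndepSet U μ := by
    rw [ProbabilityTheory.iIndepSet_iff_meas_biInter hUm]
    intro s
    rw [hform s, prod_congr rfl (fun j _ => hsingle j), ENNReal.ofReal_prod_of_nonneg]
    intro j _
    positivity
  have hsum : ∑' j, μ (U j) = ⊤ := by
    by_contra hfin
    apply hdiv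
    let f : ℕ → ℝ := fun q => if ψ q ≠ 0 then (Nat.totient q : ℝ) / N (J q + 1) else 0
    have hf0 : ∀ q, 0 ≤ f q := by
      intro q
      by_cases h : ψ q ≠ 0
      · simp only [f, if_pos h]; positivity
      · simp only [f, if_neg h]; exact le_rfl
    have hle : ∀ j, ∑' q, (if j = J q then ENNReal.ofReal (f q) else 0) ≤ μ (U j) := by
      intro j
      refine le_trans (le_of_eq ?_) (hUvol j)
      rw [tsum_eq_sum (s := Qb j)]
      · rw [sum_div, ENNReal.ofReal_sum_of_nonneg (fun q _ => by positivity)]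
        apply sum_congr rfl
        intro q hq
        have hq' := mem_filter.mp hq
        rw [if_pos hq'.2.2.symm]
        simp only [f, if_pos hq'.2.1, hq'.2.2]
      · intro q hq
        by_cases hJq : j = J q
        · rw [if_pos hJq]
          have hψq : ψ q = 0 := by
            by_contra h
            apply hq
            rw [mem_filter, Nat.mem_divisors]
            have := hJ q h
            rw [← hJq] at this
            exact ⟨⟨this.2.1, (hN (j + 1)).ne'⟩, h, hJq.symm⟩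
          simp [f, hψq]
        · rw [if_neg hJq]
    have hcomm : ∑' q, ENNReal.ofReal (f q)
        = ∑' j, ∑' q, (if j = J q then ENNReal.ofReal (f q) else 0) := by
      rw [ENNReal.tsum_comm]
      apply tsum_congr
      intro q
      rw [tsum_ite_eq]
    have hfin' : ∑' q, ENNReal.ofReal (f q) ≠ ⊤ := by
      rw [hcomm]
      exact ne_top_of_le_ne_top hfin (ENNReal.tsum_le_tsum hle)
    have hfs : Summable f := by
      have := ENNReal.summable_toReal hfin'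
      refine this.congr ?_
      intro q
      exact ENNReal.toReal_ofReal (hf0 q)
    refine Summable.of_nonneg_of_le ?_ ?_ (hfs.mul_left C)
    · intro q
      by_cases hψq : ψ q = 0
      · simp [hψq]
      · have := hJ q hψq
        have hq0 : 0 ≤ ψ q := le_trans (by positivity) this.2.2.1
        positivity
    · intro q
      by_cases hψq : ψ q = 0
      · simp [f, hψq]
      · obtain ⟨h1, h2, h3, h4⟩ := hJ q hψq
        have hq0 : 0 < q := Nat.pos_of_dvd_of_pos h2 (hN _)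
        have hqr : (0:ℝ) < q := by exact_mod_cast hq0
        have hNr : (0:ℝ) < N (J q + 1) := by exact_mod_cast hN _
        simp only [f, if_pos hψq]
        calc (Nat.totient q : ℝ) * ψ q / q
            ≤ (Nat.totient q : ℝ) * (C * ((q:ℝ) / N (J q + 1))) / q := by
              apply div_le_div_of_nonneg_right _ hqr.le
              exact mul_le_mul_of_nonneg_left h4 (Nat.cast_nonneg _)
          _ = C * ((Nat.totient q : ℝ) / N (J q + 1)) := by field_simp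
  have hlim := ProbabilityTheory.measure_limsup_eq_one hUm hindep hsum
  have hae : ∀ᵐ x ∂μ, {q : ℕ | ∃ a : ℤ, |(q : ℝ) * x - a - γ q| < ψ q}.Infinite := by
    have h1 : ∀ᵐ x ∂μ, x ∈ limsup U atTop := by
      rw [ae_iff]
      have : {a | a ∉ limsup U atTop} = (limsup U atTop)ᶜ := rfl
      rw [this, prob_compl_eq_zero_iff (MeasurableSet.measurableSet_limsup hUm)]
      exact hlim
    filter_upwards [h1] with x hx
    rw [mem_limsup_iff_frequently_mem, frequently_atTop] at hx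
    intro hfin
    obtain ⟨B, hB⟩ := (hfin.image J).bddAbove
    obtain ⟨j, hj, hxj⟩ := hx (B + 1)
    obtain ⟨q, hq, a, ha⟩ := hUq j x hxj
    have hJq : J q = j := (mem_filter.mp hq).2.2
    have : J q ≤ B := hB (Set.mem_image_of_mem J ⟨a, ha⟩)
    omega
  have hae' : ∀ᵐ x : ℝ, x ∈ Set.Ico (0:ℝ) 1 →
      {q : ℕ | ∃ a : ℤ, |(q : ℝ) * x - a - γ q| < ψ q}.Infinite :=
    (ae_restrict_iff' measurableSet_Ico).mp hae
  rw [ae_iff] at hae' ⊢
  have hper : ∀ (x : ℝ) (k : ℤ),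
      {q : ℕ | ∃ a : ℤ, |(q : ℝ) * (x + -(k:ℝ)) - a - γ q| < ψ q}
        = {q : ℕ | ∃ a : ℤ, |(q : ℝ) * x - a - γ q| < ψ q} := by
    intro x k
    ext q
    constructor
    · rintro ⟨a, ha⟩
      refine ⟨a + q * k, ?_⟩
      have : (q : ℝ) * x - ((a + q * k : ℤ) : ℝ) - γ q
          = (q : ℝ) * (x + -(k:ℝ)) - a - γ q := by push_cast; ring
      rw [this]; exact ha
    · rintro ⟨a, ha⟩
      refine ⟨a - q * k, ?_⟩
      have : (q : ℝ) * (x + -(k:ℝ)) - ((a - q * k : ℤ) : ℝ) - γ q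
          = (q : ℝ) * x - a - γ q := by push_cast; ring
      rw [this]; exact ha
  have hcover : {x : ℝ | ¬ {q : ℕ | ∃ a : ℤ, |(q : ℝ) * x - a - γ q| < ψ q}.Infinite}
      ⊆ ⋃ k : ℤ, (fun x : ℝ => x + -(k:ℝ)) ⁻¹'
          {x : ℝ | ¬ (x ∈ Set.Ico (0:ℝ) 1 →
            {q : ℕ | ∃ a : ℤ, |(q : ℝ) * x - a - γ q| < ψ q}.Infinite)} := by
    intro x hx
    rw [Set.mem_iUnion]
    refine ⟨⌊x⌋, ?_⟩
    show ¬ (x + -(⌊x⌋:ℝ) ∈ Set.Ico (0:ℝ) 1 → _)
    intro h
    apply hx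
    have hmem : x + -(⌊x⌋:ℝ) ∈ Set.Ico (0:ℝ) 1 :=
      ⟨by linarith [Int.floor_le x], by linarith [Int.lt_floor_add_one x]⟩
    have := h hmem
    rwa [hper x ⌊x⌋] at this
  refine measure_mono_null hcover (measure_iUnion_null (fun k : ℤ => ?_))
  rw [measure_preimage_add_right]
  exact hae'

end Vale.Agent.Results.P028.NestedBlocksFullMeasure
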