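import Mathlib
import Vale.Agent.Lib.P028.Rogers
import Vale.Agent.Lib.P028.Cells

namespace Vale.Agent.Results.P028.RogersBlockBound

open Finset MeasureTheory Vale.Agent.Lib.P028

/-- Inhomogeneous Duffin-Schaeffer block bound with moving targets, in the regime where the
common radius `1/N` of the intervals is at most the spacing of the fractions with denominators
in `Q`: the part of `[0,1)` that is `(q/N)`-approximable with some denominator `q` in `Q` and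
shift `γ q` has measure at least the Duffin-Schaeffer sum `∑ φ(q) (q/N) / q`. -/
theorem result (N : ℕ) (hN : 0 < N) (Q : Finset ℕ) (hQ : ∀ q ∈ Q, q ∣ N) (γ : ℕ → ℝ) :
    ENNReal.ofReal ((∑ q ∈ Q, (Nat.totient q : ℝ)) / N) ≤
      volume {x : ℝ | x ∈ Set.Ico (0:ℝ) 1 ∧
        ∃ q ∈ Q, ∃ a : ℤ, |(q:ℝ) * x - a - γ q| < (q:ℝ) / N} := by
  have hsub : {x : ℝ | x ∈ Set.Ico (0:ℝ) 1 ∧
        ⌊(N:ℝ) * x⌋₊ ∈ cov N (Q.image (fun q => (N / q, ⌊(N:ℝ) * γ q / q⌋)))}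
      ⊆ {x : ℝ | x ∈ Set.Ico (0:ℝ) 1 ∧
        ∃ q ∈ Q, ∃ a : ℤ, |(q:ℝ) * x - a - γ q| < (q:ℝ) / N} := by
    rintro x ⟨hx, hc⟩
    refine ⟨hx, ?_⟩
    obtain ⟨-, p, hp, hdvd⟩ := mem_cov.mp hc
    obtain ⟨q, hq, rfl⟩ := mem_image.mp hp
    exact ⟨q, hq, cell_subset N hN q (Nat.pos_of_dvd_of_pos (hQ q hq) hN) (hQ q hq) (γ q) x
      hx.1 hdvd⟩
  refine le_trans ?_ (measure_mono hsub)
  rw [volume_cells N hN _ (cov_subset _ _)]
  apply ENNReal.ofReal_le_ofReal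
  have hNpos : (0:ℝ) < N := by exact_mod_cast hN
  apply div_le_div_of_nonneg_right _ hNpos.le
  have := totient_sum_le_cov N hN Q hQ (fun q => ⌊(N:ℝ) * γ q / q⌋)
  exact_mod_cast this

end Vale.Agent.Results.P028.RogersBlockBound
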